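import Vale.Agent.P254.S.H545.GaugeAd
import Vale.Agent.P254.S.H130.Gauss
import Vale.Agent.P254.S.H130.AlgM

/-!
P254, block SP, row SP-POS/P3 (helper462): continuity of `A ↦ E f(D²φ_A)`, where `∇φ_A` pushes the
standard Gaussian onto the image of `e^{-V}` under the linear map `A`.  No compactness, no uniqueness:
Legendre duality gives the `L²` continuity of the maps, strict concavity of `log det` together with the
entropy formula gives the `L²` continuity of the Hessians.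
-/

open MeasureTheory Matrix Filter Topology
open scoped Matrix MatrixOrder

noncomputable section

namespace Vale.Agent.P254.SP.H462

open Vale.Agent.P227.M Vale.Agent.P254.S Vale.Agent.P254.S.H545

variable {n : ℕ}

/-! ### the quadratic upper bound -/

theorem upper_at {φ : E n → ℝ} {b : ℝ} (h2 : ContDiff ℝ 2 φ)
    (hu : ∀ z v, qf (hess φ z) v ≤ b * ‖v‖ ^ 2) (z w : E n) :
    φ w ≤ φ z + inner ℝ (gradient φ z) (w - z) + b / 2 * ‖w - z‖ ^ 2 := by
  have hp : ∀ (g : E n → ℝ) (i : Fin n), pd i (fun u => -g u) = fun u => -pd i g u := by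
    intro g i
    funext u
    unfold pd
    rw [fderiv_fun_neg]
    rfl
  have hh : ∀ u v, qf (hess (fun u => -φ u) u) v = -qf (hess φ u) v := by
    intro u v
    unfold qf hess
    simp only [hp]
    simp only [← Finset.sum_neg_distrib]
    refine Finset.sum_congr rfl fun i _ => Finset.sum_congr rfl fun j _ => ?_
    ring
  have h3 := lower_at (φ := fun u => -φ u) (a := -b) h2.neg
    (fun z v => by rw [hh]; have := hu z v; linarith) z w
  rw [inner_grad, fderiv_fun_neg] at h3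
  rw [inner_grad]
  simp only [_root_.neg_apply] at h3
  linarith

/-- the Legendre inequality with a quadratic gain -/
theorem leg_gain {γ μ : Measure (E n)} {φ : E n → ℝ} {T R : E n → E n}
    (h : P254.H545.Pot γ μ φ T R) {b : ℝ} (hb : 0 < b)
    (hu : ∀ z w, φ w ≤ φ z + inner ℝ (T z) (w - z) + b / 2 * ‖w - z‖ ^ 2) (y w : E n) :
    inner ℝ y w + 1 / (2 * b) * ‖y - T w‖ ^ 2 ≤ P254.H545.leg φ R y + φ w := by
  have h1 := h.inner_le y (w + b⁻¹ • (y - T w))
  have h2 := hu w (w + b⁻¹ • (y - T w))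
  rw [add_sub_cancel_left] at h2
  rw [inner_add_right, inner_smul_right] at h1
  rw [inner_smul_right, norm_smul, mul_pow, Real.norm_eq_abs, sq_abs] at h2
  have h3 : inner ℝ y (y - T w) - inner ℝ (T w) (y - T w) = ‖y - T w‖ ^ 2 := by
    rw [← inner_sub_left, real_inner_self_eq_norm_sq]
  have h4 : b / 2 * (b⁻¹ ^ 2 * ‖y - T w‖ ^ 2) = 1 / (2 * b) * ‖y - T w‖ ^ 2 := by
    field_simp
  have h5 : b⁻¹ * inner ℝ y (y - T w) - b⁻¹ * inner ℝ (T w) (y - T w) =
      2 * (1 / (2 * b) * ‖y - T w‖ ^ 2) := by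
    rw [← mul_sub, h3]
    field_simp
  rw [h4] at h2
  linarith

/-! ### growth -/

theorem gr_inner_grad {φ V : E n → ℝ} {a b M κ : ℝ} (h : BP φ V a b M κ)
    (A : Matrix (Fin n) (Fin n) ℝ) : Gr fun z => inner ℝ (lin A (gradient φ z)) z := by
  have e : (fun z : E n => inner ℝ (lin A (gradient φ z)) z) =
      fun z => ∑ i, ∑ j, A i j * (z i * pd j φ z) := by
    funext z
    unfold lin
    rw [PiLp.inner_apply]
    refine Finset.sum_congr rfl fun i _ => ?_
    simp only [mulVec, dotProduct, RCLike.inner_apply, conj_trivial, Finset.mul_sum]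
    refine Finset.sum_congr rfl fun j _ => ?_
    rw [grad_coord]
    ring
  rw [e]
  exact Gr.sum _ fun i _ => Gr.sum _ fun j _ => ((Gr.coord i).mul (gr_dφ h j)).const_mul _

theorem gr_norm_grad {φ V : E n → ℝ} {a b M κ : ℝ} (h : BP φ V a b M κ)
    (A : Matrix (Fin n) (Fin n) ℝ) : Gr fun z => ‖lin A (gradient φ z)‖ ^ 2 := by
  have e : (fun z : E n => ‖lin A (gradient φ z)‖ ^ 2) =
      fun z => ∑ i, (∑ j, A i j * pd j φ z) ^ 2 := by
    funext z
    rw [norm_sq_eq_sum]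
    refine Finset.sum_congr rfl fun i _ => ?_
    unfold lin
    simp only [mulVec, dotProduct, grad_coord]
  rw [e]
  exact Gr.sum _ fun i _ => (Gr.sum _ fun j _ => (gr_dφ h j).const_mul _).pow 2

/-- `‖A T₁ + B T₂‖²` -/
theorem gr_norm_grad2 {φ V : E n → ℝ} {a b M κ : ℝ} (h : BP φ V a b M κ)
    {φ' V' : E n → ℝ} {a' b' M' κ' : ℝ} (h' : BP φ' V' a' b' M' κ')
    (A : Matrix (Fin n) (Fin n) ℝ) :
    Gr fun z => ‖lin A (gradient φ z) - gradient φ' z‖ ^ 2 := by
  have e : (fun z : E n => ‖lin A (gradient φ z) - gradient φ' z‖ ^ 2) =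
      fun z => ∑ i, (∑ j, A i j * pd j φ z - pd i φ' z) ^ 2 := by
    funext z
    rw [norm_sq_eq_sum]
    refine Finset.sum_congr rfl fun i _ => ?_
    rw [PiLp.sub_apply, grad_coord]
    unfold lin
    simp only [mulVec, dotProduct, grad_coord]
  rw [e]
  exact Gr.sum _ fun i _ =>
    ((Gr.sum _ fun j _ => (gr_dφ h j).const_mul _).sub (gr_dφ h' i)).pow 2

theorem lin_apply' (A : Matrix (Fin n) (Fin n) ℝ) (x : E n) : lin A x = P254.H545.act A x := rfl

/-! ### the family -/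

/-- Brenier potentials of `e^{-V_P}`, `V_P = V ∘ P`, `P ∈ S`, with common bounds -/
structure Fm (V : E n → ℝ) (p a b : ℝ) (S : Set (Matrix (Fin n) (Fin n) ℝ))
    (φ : Matrix (Fin n) (Fin n) ℝ → E n → ℝ) (M κ : Matrix (Fin n) (Fin n) ℝ → ℝ) : Prop where
  p_pos : 0 < p
  low : ∀ P ∈ S, ∀ v : E n, p * ‖v‖ ^ 2 ≤ qf P v
  symm : ∀ P ∈ S, P.transpose = P
  bp : ∀ P ∈ S, BP (φ P) (fun x => V (lin P x)) a b (M P) (κ P)

theorem qf_eq_inner (P : Matrix (Fin n) (Fin n) ℝ) (v : E n) : qf P v = inner ℝ (lin P v) v := by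
  unfold lin qf
  rw [PiLp.inner_apply]
  refine Finset.sum_congr rfl fun i _ => ?_
  simp only [mulVec, dotProduct, RCLike.inner_apply, conj_trivial, Finset.mul_sum]
  refine Finset.sum_congr rfl fun j _ => ?_
  ring

theorem qf_eq_dot (P : Matrix (Fin n) (Fin n) ℝ) (v : E n) :
    qf P v = star v.ofLp ⬝ᵥ (P *ᵥ v.ofLp) := by
  unfold qf
  simp only [star_trivial, dotProduct, mulVec, Finset.mul_sum]
  refine Finset.sum_congr rfl fun i _ => Finset.sum_congr rfl fun j _ => ?_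
  ring

theorem posDef_of_qf {P : Matrix (Fin n) (Fin n) ℝ} (hs : P.transpose = P) {p : ℝ} (hp : 0 < p)
    (hl : ∀ v : E n, p * ‖v‖ ^ 2 ≤ qf P v) : P.PosDef := by
  rw [posDef_iff_dotProduct_mulVec]
  refine ⟨?_, fun x hx => ?_⟩
  · rw [Matrix.IsHermitian, conjTranspose_eq_transpose_of_trivial, hs]
  · have h1 := hl (WithLp.toLp 2 x)
    rw [qf_eq_dot] at h1
    refine lt_of_lt_of_le ?_ h1
    have hx' : (WithLp.toLp 2 x : E n) ≠ 0 := by
      intro h0; apply hx; funext i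
      exact congrArg (fun y : E n => y i) h0
    have h3 : 0 < ‖(WithLp.toLp 2 x : E n)‖ := norm_pos_iff.2 hx'
    positivity

/-- `|P⁻¹ w| ≤ |w| / p` -/
theorem norm_lin_inv {P : Matrix (Fin n) (Fin n) ℝ} (hd : P.det ≠ 0) {p : ℝ} (hp : 0 < p)
    (hl : ∀ v : E n, p * ‖v‖ ^ 2 ≤ qf P v) (w : E n) : ‖lin P⁻¹ w‖ ≤ p⁻¹ * ‖w‖ := by
  have hu : IsUnit P.det := isUnit_iff_ne_zero.2 hd
  have h1 := hl (lin P⁻¹ w)
  rw [qf_eq_inner, ← lin_mul, Matrix.mul_nonsing_inv _ hu, lin_one] at h1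
  have h2 := real_inner_le_norm w (lin P⁻¹ w)
  rw [inv_mul_eq_div, le_div_iff₀ hp]
  rcases (norm_nonneg (lin P⁻¹ w)).eq_or_lt with h0 | h0
  · rw [← h0, zero_mul]; exact norm_nonneg _
  · nlinarith

section fam

variable {V : E n → ℝ} {c C p a b : ℝ} {S : Set (Matrix (Fin n) (Fin n) ℝ)}
  {φ : Matrix (Fin n) (Fin n) ℝ → E n → ℝ} {M κ : Matrix (Fin n) (Fin n) ℝ → ℝ}

theorem Fm.posDef (h : Fm V p a b S φ M κ) {A : Matrix (Fin n) (Fin n) ℝ} (hA : A ∈ S) :
    A.PosDef := posDef_of_qf (h.symm A hA) h.p_pos (h.low A hA)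

theorem Fm.det_ne (h : Fm V p a b S φ M κ) {A : Matrix (Fin n) (Fin n) ℝ} (hA : A ∈ S) :
    A.det ≠ 0 := (h.posDef hA).det_pos.ne'

/-- the law of `A⁻¹ B T_B` -/
theorem Fm.map_S (hP : StmtPush) (hV : Reg V c C) (h : Fm V p a b S φ M κ)
    {A B : Matrix (Fin n) (Fin n) ℝ} (hA : A ∈ S) (hB : B ∈ S) :
    (law Q).map (fun z => lin (A⁻¹ * B) (gradient (φ B) z)) = law fun x => V (lin A x) := by
  have hb := h.bp B hB
  obtain ⟨c', C', hV'⟩ := reg_lin hV (h.det_ne hB)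
  have h1 := map_grad hP hV' hb
  have hm : Measurable (gradient (φ B)) := (continuous_grad hb.C2).measurable
  have hu : IsUnit A.det := isUnit_iff_ne_zero.2 (h.det_ne hA)
  have hu' : IsUnit B.det := isUnit_iff_ne_zero.2 (h.det_ne hB)
  have hd : (A⁻¹ * B).det ≠ 0 := by
    rw [det_mul, Matrix.det_nonsing_inv]
    exact mul_ne_zero (by simpa using h.det_ne hA) (h.det_ne hB)
  have h2 := law_map hV' hd
  have e1 : (fun z => lin (A⁻¹ * B) (gradient (φ B) z)) =
      (P254.H545.act (A⁻¹ * B) : E n → E n) ∘ gradient (φ B) := rfl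
  rw [e1, ← Measure.map_map (P254.H545.act (A⁻¹ * B)).continuous.measurable hm, h1, h2]
  congr 1
  funext x
  rw [← lin_mul]
  congr 2
  rw [Matrix.mul_inv_rev, Matrix.nonsing_inv_nonsing_inv _ hu, ← Matrix.mul_assoc,
    Matrix.mul_nonsing_inv _ hu', Matrix.one_mul]

/-- **Legendre duality with gain**, two members of the family -/
theorem Fm.dual_le (hP : StmtPush) (hV : Reg V c C) (h : Fm V p a b S φ M κ) (hb : 0 < b)
    {A B : Matrix (Fin n) (Fin n) ℝ} (hA : A ∈ S) (hB : B ∈ S) :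
    1 / (2 * b) * ∫ z, ‖lin (A⁻¹ * B) (gradient (φ B) z) - gradient (φ A) z‖ ^ 2 ∂(law Q) ≤
      ∫ z, inner ℝ (gradient (φ A) z) z ∂(law Q) -
        ∫ z, inner ℝ (lin (A⁻¹ * B) (gradient (φ B) z)) z ∂(law Q) := by
  have hbA := h.bp A hA
  have hbB := h.bp B hB
  obtain ⟨c', C', hV'⟩ := reg_lin hV (h.det_ne hA)
  have hp := pot hP hV' hbA
  set R := Function.invFun (gradient (φ A)) with hR
  set Sm : E n → E n := fun z => lin (A⁻¹ * B) (gradient (φ B) z) with hSm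
  have hφc : Continuous (φ A) := hbA.C2.continuous
  have hlm : Measurable (P254.H545.leg (φ A) R) :=
    (measurable_id.inner hp.measR).sub (hφc.measurable.comp hp.measR)
  have hSmeas : Measurable Sm :=
    (P254.H545.act (A⁻¹ * B)).continuous.measurable.comp (continuous_grad hbB.C2).measurable
  have hiT : Integrable (fun z => inner ℝ (gradient (φ A) z) z) (law Q) := by
    have := integrable_law_gr reg_Q (gr_inner_grad hbA 1)
    simpa only [lin_one] using this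
  have hiS : Integrable (fun z => inner ℝ (Sm z) z) (law Q) :=
    integrable_law_gr reg_Q (gr_inner_grad hbB (A⁻¹ * B))
  have hiφ : Integrable (φ A) (law Q) := integrable_law_gr reg_Q (gr_φ hbA)
  have hiN : Integrable (fun z => ‖Sm z - gradient (φ A) z‖ ^ 2) (law Q) :=
    integrable_law_gr reg_Q (gr_norm_grad2 hbB hbA (A⁻¹ * B))
  have hlegT : (fun z => P254.H545.leg (φ A) R (gradient (φ A) z)) =
      fun z => inner ℝ (gradient (φ A) z) z - φ A z := funext fun z => hp.leg_T z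
  have hmapS : (law Q).map Sm = (law Q).map (gradient (φ A)) := by
    rw [hp.map, hSm]
    exact h.map_S hP hV hA hB
  have hil : Integrable (P254.H545.leg (φ A) R) ((law Q).map (gradient (φ A))) := by
    rw [integrable_map_measure hlm.aestronglyMeasurable hp.measT.aemeasurable]
    show Integrable (fun z => P254.H545.leg (φ A) R (gradient (φ A) z)) (law Q)
    rw [hlegT]
    exact hiT.sub hiφ
  have hilS : Integrable (fun z => P254.H545.leg (φ A) R (Sm z)) (law Q) := by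
    rw [← hmapS, integrable_map_measure hlm.aestronglyMeasurable hSmeas.aemeasurable] at hil
    exact hil
  have hls : ∫ z, P254.H545.leg (φ A) R (Sm z) ∂(law Q) =
      ∫ z, inner ℝ (gradient (φ A) z) z ∂(law Q) - ∫ z, φ A z ∂(law Q) := by
    rw [← integral_map hSmeas.aemeasurable hlm.aestronglyMeasurable, hmapS,
      integral_map hp.measT.aemeasurable hlm.aestronglyMeasurable, hlegT, integral_sub hiT hiφ]
  have hmain : ∫ z, (inner ℝ (Sm z) z + 1 / (2 * b) * ‖Sm z - gradient (φ A) z‖ ^ 2) ∂(law Q) ≤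
      ∫ z, (P254.H545.leg (φ A) R (Sm z) + φ A z) ∂(law Q) :=
    integral_mono (hiS.add (hiN.const_mul _)) (hilS.add hiφ) fun z =>
      leg_gain hp hb (upper_at hbA.C2 hbA.upper) _ _
  rw [integral_add hiS (hiN.const_mul _), integral_add hilS hiφ, hls, integral_const_mul] at hmain
  linarith

/-! ### `L²` continuity of the maps -/

theorem gr_T2 (h : Fm V p a b S φ M κ) {A : Matrix (Fin n) (Fin n) ℝ} (hA : A ∈ S) :
    Gr fun z => ‖gradient (φ A) z‖ ^ 2 := by
  simpa only [lin_one] using gr_norm_grad (h.bp A hA) 1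

/-- the second moment of `T_A` is bounded -/
theorem Fm.T2_le (hP : StmtPush) (hV : Reg V c C) (h : Fm V p a b S φ M κ)
    {A : Matrix (Fin n) (Fin n) ℝ} (hA : A ∈ S) :
    ∫ z, ‖gradient (φ A) z‖ ^ 2 ∂(law Q) ≤ (p⁻¹) ^ 2 * ∫ x, ‖x‖ ^ 2 ∂(law V) := by
  have hbA := h.bp A hA
  have hu : IsUnit A.det := isUnit_iff_ne_zero.2 (h.det_ne hA)
  have h1 := (hP n (φ A) _ a b (M A) (κ A) hbA).1 (fun x => ‖x‖ ^ 2)
  have h2 := Ex_lin (h.det_ne hA) V fun x => ‖lin A⁻¹ x‖ ^ 2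
  have e1 : (fun x : E n => ‖lin A⁻¹ (lin A x)‖ ^ 2) = fun x => ‖x‖ ^ 2 := by
    funext x
    rw [← lin_mul, Matrix.nonsing_inv_mul _ hu, lin_one]
  rw [e1] at h2
  rw [int_law reg_Q, ← h1, h2, ← int_law hV, ← integral_const_mul]
  have hi : Integrable (fun x : E n => ‖lin A⁻¹ x‖ ^ 2) (law V) := by
    refine ((law_sq hV).const_mul ((p⁻¹) ^ 2)).mono'
      ((P254.H545.act A⁻¹).continuous.norm.pow 2).aestronglyMeasurable
      (Eventually.of_forall fun x => ?_)
    rw [Real.norm_eq_abs, abs_of_nonneg (by positivity), ← mul_pow]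
    exact pow_le_pow_left₀ (norm_nonneg _) (norm_lin_inv (h.det_ne hA) h.p_pos (h.low A hA) x) 2
  refine integral_mono hi ((law_sq hV).const_mul _) fun x => ?_
  show ‖lin A⁻¹ x‖ ^ 2 ≤ (p⁻¹) ^ 2 * ‖x‖ ^ 2
  rw [← mul_pow]
  exact pow_le_pow_left₀ (norm_nonneg _) (norm_lin_inv (h.det_ne hA) h.p_pos (h.low A hA) x) 2

/-- the operator norm of `lin A` -/
def opn (A : Matrix (Fin n) (Fin n) ℝ) : ℝ := ‖linL A‖

theorem opn_nonneg (A : Matrix (Fin n) (Fin n) ℝ) : 0 ≤ opn A := norm_nonneg _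

theorem lin_le (A : Matrix (Fin n) (Fin n) ℝ) (x : E n) : ‖lin A x‖ ≤ opn A * ‖x‖ :=
  (linL A).le_opNorm x

theorem lin_sub (A B : Matrix (Fin n) (Fin n) ℝ) (x : E n) :
    lin (A - B) x = lin A x - lin B x := by
  unfold lin
  rw [sub_mulVec]
  rfl

theorem continuous_opn : Continuous (opn : Matrix (Fin n) (Fin n) ℝ → ℝ) := by
  unfold opn linL
  have h1 : Continuous (P254.H545.act : Matrix (Fin n) (Fin n) ℝ → E n →L[ℝ] E n) := by
    exact LinearMap.continuous_of_finiteDimensional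
      (Matrix.toEuclideanCLM (𝕜 := ℝ) (n := Fin n)).toAlgEquiv.toLinearMap
  exact h1.norm

theorem opn_zero : opn (0 : Matrix (Fin n) (Fin n) ℝ) = 0 := by
  unfold opn linL P254.H545.act
  rw [map_zero, norm_zero]

theorem lin_one_sub (A : Matrix (Fin n) (Fin n) ℝ) (x : E n) :
    lin (1 - A) x = x - lin A x := by rw [lin_sub, lin_one]

theorem norm_mul_le {x y : E n} : ‖x‖ * ‖y‖ ≤ 1 / 2 * (‖x‖ ^ 2 + ‖y‖ ^ 2) := by
  nlinarith [sq_nonneg (‖x‖ - ‖y‖)]

/-- the moment constant -/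
def Kc (V : E n → ℝ) (p : ℝ) : ℝ :=
  1 / 2 * ((p⁻¹) ^ 2 * ∫ x, ‖x‖ ^ 2 ∂(law V) + ∫ z : E n, ‖z‖ ^ 2 ∂(law Q))

theorem Fm.inner_bound (hP : StmtPush) (hV : Reg V c C) (h : Fm V p a b S φ M κ)
    {A : Matrix (Fin n) (Fin n) ℝ} (hA : A ∈ S) {W : Matrix (Fin n) (Fin n) ℝ} {w : ℝ} (hw : 0 ≤ w)
    (hW : ∀ x : E n, ‖lin W x‖ ≤ w * ‖x‖) :
    ∫ z, inner ℝ (lin W (gradient (φ A) z)) z ∂(law Q) ≤ w * Kc V p := by
  have hi2 : Integrable (fun z => ‖gradient (φ A) z‖ ^ 2) (law Q) :=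
    integrable_law_gr reg_Q (gr_T2 h hA)
  have hz2 : Integrable (fun z : E n => ‖z‖ ^ 2) (law Q) := law_sq reg_Q
  have h1 : ∫ z, inner ℝ (lin W (gradient (φ A) z)) z ∂(law Q) ≤
      ∫ z, w * (1 / 2 * (‖gradient (φ A) z‖ ^ 2 + ‖z‖ ^ 2)) ∂(law Q) := by
    refine integral_mono (integrable_law_gr reg_Q (gr_inner_grad (h.bp A hA) W))
      (((hi2.add hz2).const_mul _).const_mul _) fun z => ?_
    have h2 := real_inner_le_norm (lin W (gradient (φ A) z)) z
    have h3 : ‖lin W (gradient (φ A) z)‖ * ‖z‖ ≤ w * ‖gradient (φ A) z‖ * ‖z‖ :=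
      mul_le_mul_of_nonneg_right (hW _) (norm_nonneg _)
    have h4 : w * (‖gradient (φ A) z‖ * ‖z‖) ≤
        w * (1 / 2 * (‖gradient (φ A) z‖ ^ 2 + ‖z‖ ^ 2)) :=
      mul_le_mul_of_nonneg_left norm_mul_le hw
    simp only
    linarith
  refine h1.trans ?_
  rw [integral_const_mul, integral_const_mul, integral_add hi2 hz2]
  unfold Kc
  refine mul_le_mul_of_nonneg_left ?_ hw
  have := h.T2_le hP hV hA
  linarith

theorem Kc_nonneg : 0 ≤ Kc V p := by
  unfold Kc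
  have h1 : 0 ≤ ∫ x, ‖x‖ ^ 2 ∂(law V) := integral_nonneg fun x => by positivity
  have h2 : 0 ≤ ∫ z : E n, ‖z‖ ^ 2 ∂(law Q) := integral_nonneg fun x => by positivity
  positivity

/-- `L²` stability of the maps -/
theorem Fm.T_est (hP : StmtPush) (hV : Reg V c C) (h : Fm V p a b S φ M κ) (hb : 0 < b)
    {A B : Matrix (Fin n) (Fin n) ℝ} (hA : A ∈ S) (hB : B ∈ S) :
    ∫ z, ‖gradient (φ B) z - gradient (φ A) z‖ ^ 2 ∂(law Q) ≤
      4 * b * ((p⁻¹ * opn (B - A) + opn (1 - A⁻¹ * B)) * Kc V p) +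
        4 * opn (1 - A⁻¹ * B) ^ 2 * Kc V p := by
  have h0 := isProb_law (reg_Q (n := n))
  have h1 := h.dual_le hP hV hb hA hB
  have h2 := h.dual_le hP hV hb hB hA
  have hbA := h.bp A hA
  have hbB := h.bp B hB
  have hu' : IsUnit B.det := isUnit_iff_ne_zero.2 (h.det_ne hB)
  -- the two brackets
  have hiA : Integrable (fun z => inner ℝ (gradient (φ A) z) z) (law Q) := by
    simpa only [lin_one] using integrable_law_gr reg_Q (gr_inner_grad hbA 1)
  have hiB : Integrable (fun z => inner ℝ (gradient (φ B) z) z) (law Q) := by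
    simpa only [lin_one] using integrable_law_gr reg_Q (gr_inner_grad hbB 1)
  have hiA' : ∀ W, Integrable (fun z => inner ℝ (lin W (gradient (φ A) z)) z) (law Q) :=
    fun W => integrable_law_gr reg_Q (gr_inner_grad hbA W)
  have hiB' : ∀ W, Integrable (fun z => inner ℝ (lin W (gradient (φ B) z)) z) (law Q) :=
    fun W => integrable_law_gr reg_Q (gr_inner_grad hbB W)
  have e1 : ∫ z, inner ℝ (gradient (φ A) z) z ∂(law Q) -
      ∫ z, inner ℝ (lin (B⁻¹ * A) (gradient (φ A) z)) z ∂(law Q) =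
      ∫ z, inner ℝ (lin (1 - B⁻¹ * A) (gradient (φ A) z)) z ∂(law Q) := by
    rw [← integral_sub hiA (hiA' _)]
    refine integral_congr_ae (Eventually.of_forall fun z => ?_)
    simp only
    rw [lin_one_sub, inner_sub_left]
  have e2 : ∫ z, inner ℝ (gradient (φ B) z) z ∂(law Q) -
      ∫ z, inner ℝ (lin (A⁻¹ * B) (gradient (φ B) z)) z ∂(law Q) =
      ∫ z, inner ℝ (lin (1 - A⁻¹ * B) (gradient (φ B) z)) z ∂(law Q) := by
    rw [← integral_sub hiB (hiB' _)]
    refine integral_congr_ae (Eventually.of_forall fun z => ?_)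
    simp only
    rw [lin_one_sub, inner_sub_left]
  have b1 : ∫ z, inner ℝ (lin (1 - B⁻¹ * A) (gradient (φ A) z)) z ∂(law Q) ≤
      (p⁻¹ * opn (B - A)) * Kc V p := by
    refine h.inner_bound hP hV hA (mul_nonneg (inv_nonneg.2 h.p_pos.le) (opn_nonneg _)) fun x => ?_
    have e3 : (1 : Matrix (Fin n) (Fin n) ℝ) - B⁻¹ * A = B⁻¹ * (B - A) := by
      rw [mul_sub, Matrix.nonsing_inv_mul _ hu']
    rw [e3, lin_mul]
    refine (norm_lin_inv (h.det_ne hB) h.p_pos (h.low B hB) _).trans ?_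
    rw [mul_assoc]
    exact mul_le_mul_of_nonneg_left (lin_le _ _) (inv_nonneg.2 h.p_pos.le)
  have b2 : ∫ z, inner ℝ (lin (1 - A⁻¹ * B) (gradient (φ B) z)) z ∂(law Q) ≤
      opn (1 - A⁻¹ * B) * Kc V p := h.inner_bound hP hV hB (opn_nonneg _) fun x => lin_le _ _
  -- nonnegativity of the second gain
  have hn2 : 0 ≤ 1 / (2 * b) *
      ∫ z, ‖lin (B⁻¹ * A) (gradient (φ A) z) - gradient (φ B) z‖ ^ 2 ∂(law Q) :=
    mul_nonneg (by positivity) (integral_nonneg fun z => by positivity)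
  have h3 : 1 / (2 * b) *
      ∫ z, ‖lin (A⁻¹ * B) (gradient (φ B) z) - gradient (φ A) z‖ ^ 2 ∂(law Q) ≤
      (p⁻¹ * opn (B - A) + opn (1 - A⁻¹ * B)) * Kc V p := by
    have h4 : 0 ≤ ∫ z, inner ℝ (lin (1 - A⁻¹ * B) (gradient (φ B) z)) z ∂(law Q) +
        ∫ z, inner ℝ (lin (1 - B⁻¹ * A) (gradient (φ A) z)) z ∂(law Q) -
        1 / (2 * b) *
          ∫ z, ‖lin (A⁻¹ * B) (gradient (φ B) z) - gradient (φ A) z‖ ^ 2 ∂(law Q) := by
      rw [← e1, ← e2]
      linarith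
    rw [add_mul]
    linarith
  have h5 : ∫ z, ‖lin (A⁻¹ * B) (gradient (φ B) z) - gradient (φ A) z‖ ^ 2 ∂(law Q) ≤
      2 * b * ((p⁻¹ * opn (B - A) + opn (1 - A⁻¹ * B)) * Kc V p) := by
    have h6 := mul_le_mul_of_nonneg_left h3 (by positivity : (0 : ℝ) ≤ 2 * b)
    have e4 : 2 * b * (1 / (2 * b) *
      ∫ z, ‖lin (A⁻¹ * B) (gradient (φ B) z) - gradient (φ A) z‖ ^ 2 ∂(law Q)) =
      ∫ z, ‖lin (A⁻¹ * B) (gradient (φ B) z) - gradient (φ A) z‖ ^ 2 ∂(law Q) := by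
      field_simp
    rwa [e4] at h6
  -- triangle inequality
  have hiN : Integrable (fun z => ‖lin (A⁻¹ * B) (gradient (φ B) z) - gradient (φ A) z‖ ^ 2)
      (law Q) := integrable_law_gr reg_Q (gr_norm_grad2 hbB hbA (A⁻¹ * B))
  have hiD : Integrable (fun z => ‖gradient (φ B) z - gradient (φ A) z‖ ^ 2) (law Q) := by
    simpa only [lin_one] using integrable_law_gr reg_Q (gr_norm_grad2 hbB hbA 1)
  have hiB2 : Integrable (fun z => ‖gradient (φ B) z‖ ^ 2) (law Q) :=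
    integrable_law_gr reg_Q (gr_T2 h hB)
  have h7 : ∫ z, ‖gradient (φ B) z - gradient (φ A) z‖ ^ 2 ∂(law Q) ≤
      ∫ z, (2 * ‖lin (A⁻¹ * B) (gradient (φ B) z) - gradient (φ A) z‖ ^ 2 +
        2 * opn (1 - A⁻¹ * B) ^ 2 * ‖gradient (φ B) z‖ ^ 2) ∂(law Q) := by
    refine integral_mono hiD ((hiN.const_mul _).add (hiB2.const_mul _)) fun z => ?_
    have e5 : gradient (φ B) z - gradient (φ A) z =
        (lin (A⁻¹ * B) (gradient (φ B) z) - gradient (φ A) z) +
          lin (1 - A⁻¹ * B) (gradient (φ B) z) := by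
      rw [lin_one_sub]; abel
    have h8 := norm_add_le (lin (A⁻¹ * B) (gradient (φ B) z) - gradient (φ A) z)
      (lin (1 - A⁻¹ * B) (gradient (φ B) z))
    rw [← e5] at h8
    have h9 := lin_le (1 - A⁻¹ * B) (gradient (φ B) z)
    have h10 : ‖gradient (φ B) z - gradient (φ A) z‖ ≤
        ‖lin (A⁻¹ * B) (gradient (φ B) z) - gradient (φ A) z‖ +
          opn (1 - A⁻¹ * B) * ‖gradient (φ B) z‖ := h8.trans (by linarith)
    have h11 := pow_le_pow_left₀ (norm_nonneg _) h10 2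
    simp only
    nlinarith [sq_nonneg (‖lin (A⁻¹ * B) (gradient (φ B) z) - gradient (φ A) z‖ -
      opn (1 - A⁻¹ * B) * ‖gradient (φ B) z‖)]
  rw [integral_add (hiN.const_mul _) (hiB2.const_mul _), integral_const_mul,
    integral_const_mul] at h7
  have h12 : ∫ z, ‖gradient (φ B) z‖ ^ 2 ∂(law Q) ≤ 2 * Kc V p := by
    have := h.T2_le hP hV hB
    have h13 : 0 ≤ ∫ z : E n, ‖z‖ ^ 2 ∂(law Q) := integral_nonneg fun x => by positivity
    unfold Kc
    linarith
  have h14 : 2 * opn (1 - A⁻¹ * B) ^ 2 * ∫ z, ‖gradient (φ B) z‖ ^ 2 ∂(law Q) ≤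
      2 * opn (1 - A⁻¹ * B) ^ 2 * (2 * Kc V p) := mul_le_mul_of_nonneg_left h12 (by positivity)
  linarith

/-- `L²` continuity of the maps -/
theorem Fm.tendsto_T (hP : StmtPush) (hV : Reg V c C) (h : Fm V p a b S φ M κ) (hb : 0 < b)
    {A : Matrix (Fin n) (Fin n) ℝ} (hA : A ∈ S) :
    Tendsto (fun B => ∫ z, ‖gradient (φ B) z - gradient (φ A) z‖ ^ 2 ∂(law Q))
      (𝓝[S] A) (𝓝 0) := by
  have hu : IsUnit A.det := isUnit_iff_ne_zero.2 (h.det_ne hA)
  have c1 : Continuous fun B : Matrix (Fin n) (Fin n) ℝ => opn (B - A) :=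
    continuous_opn.comp (continuous_id.sub continuous_const)
  have c2 : Continuous fun B : Matrix (Fin n) (Fin n) ℝ => opn (1 - A⁻¹ * B) :=
    continuous_opn.comp (continuous_const.sub (continuous_const.matrix_mul continuous_id))
  have c3 : Continuous fun B : Matrix (Fin n) (Fin n) ℝ =>
      4 * b * ((p⁻¹ * opn (B - A) + opn (1 - A⁻¹ * B)) * Kc V p) +
        4 * opn (1 - A⁻¹ * B) ^ 2 * Kc V p := by
    fun_prop
  have h1 := c3.tendsto A
  rw [sub_self, Matrix.nonsing_inv_mul _ hu, sub_self, opn_zero] at h1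
  have e1 : 4 * b * ((p⁻¹ * 0 + 0) * Kc V p) + 4 * (0 : ℝ) ^ 2 * Kc V p = 0 := by ring
  rw [e1] at h1
  refine squeeze_zero' (Eventually.of_forall fun B => integral_nonneg fun z => by positivity)
    ?_ (h1.mono_left nhdsWithin_le_nhds)
  filter_upwards [self_mem_nhdsWithin] with B hB
  exact h.T_est hP hV hb hA hB

end fam

end Vale.Agent.P254.SP.H462
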