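import Vale.Agent.P254.SP.H462.Cont

/-!
P254, block SP, row SP-POS/P3 (helper462), part 2: the mean of `log det D²φ_A`, and weak continuity of
the Hessians.
-/

open MeasureTheory Matrix Filter Topology
open scoped Matrix MatrixOrder

noncomputable section

namespace Vale.Agent.P254.SP.H462

open Vale.Agent.P227.M Vale.Agent.P254.S Vale.Agent.P254.S.H545

variable {n : ℕ} {V : E n → ℝ} {c C p a b : ℝ} {S : Set (Matrix (Fin n) (Fin n) ℝ)}
  {φ : Matrix (Fin n) (Fin n) ℝ → E n → ℝ} {M κ : Matrix (Fin n) (Fin n) ℝ → ℝ}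

theorem gr_V (h : Reg V c C) : Gr V := by
  obtain ⟨B, hB⟩ := h.bdd 2 le_rfl
  exact gr_of_bdd h.C2 hB

/-- the constant in the entropy formula -/
def K0 (V : E n → ℝ) : ℝ := Ex V V - ∫ z, Q z ∂(law (Q : E n → ℝ)) +
  Real.log (∫ x, Real.exp (-V x)) - Real.log (∫ z, Real.exp (-Q (n := n) z))

theorem Fm.logdet (hP : StmtPush) (hV : Reg V c C) (h : Fm V p a b S φ M κ)
    {A : Matrix (Fin n) (Fin n) ℝ} (hA : A ∈ S) :
    Integrable (fun z => Real.log (hess (φ A) z).det) (law Q) ∧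
      ∫ z, Real.log (hess (φ A) z).det ∂(law Q) = K0 V - Real.log |A.det| := by
  have hbA := h.bp A hA
  obtain ⟨c', C', hV'⟩ := reg_lin hV (h.det_ne hA)
  obtain ⟨p1, p2, p3⟩ := hP n (φ A) _ a b (M A) (κ A) hbA
  have hi1 : Integrable (fun z => V (lin A (gradient (φ A) z))) (law Q) := by
    rw [integrable_law reg_Q]
    exact (p2 fun x => V (lin A x)).1 (hV'.integrable_gr (gr_V hV'))
  have hQ : Integrable (fun z => Q z) (law (Q : E n → ℝ)) := by
    have := (law_sq (reg_Q (n := n))).const_mul (1 / 2 : ℝ)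
    refine this.congr (Eventually.of_forall fun z => ?_)
    unfold Q
    simp only
    ring
  have e1 : (fun z => Real.log (hess (φ A) z).det) =
      fun z => V (lin A (gradient (φ A) z)) - Q z - κ A := by
    funext z
    have := hbA.ma z
    unfold Q
    linarith
  have h0 := isProb_law (reg_Q (n := n))
  have h1 : ∫ z, V (lin A (gradient (φ A) z)) ∂(law Q) = Ex V V := by
    rw [int_law reg_Q, ← Ex_lin (h.det_ne hA) V V]
    exact (p1 fun x => V (lin A x)).symm
  have hZV := hV.Z_pos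
  have hZQ := (reg_Q (n := n)).Z_pos
  have hdet : |A.det|⁻¹ ≠ 0 := inv_ne_zero (abs_ne_zero.2 (h.det_ne hA))
  have h2 := integral_comp_lin (h.det_ne hA) fun y => Real.exp (-V y)
  rw [p3] at h2
  have h3 := congrArg Real.log h2
  rw [Real.log_mul (Real.exp_pos _).ne' hZQ.ne', Real.log_exp, Real.log_mul hdet hZV.ne',
    Real.log_inv] at h3
  rw [e1]
  have hi2 : Integrable (fun z => V (lin A (gradient (φ A) z)) - Q z) (law Q) := hi1.sub hQ
  refine ⟨hi2.sub (integrable_const _), ?_⟩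
  rw [integral_sub hi2 (integrable_const _), integral_sub hi1 hQ, h1]
  have h4 : ∫ _z : E n, κ A ∂(law Q) = κ A := by simp
  rw [h4]
  unfold K0
  linarith

theorem Fm.tendsto_logdet (hP : StmtPush) (hV : Reg V c C) (h : Fm V p a b S φ M κ)
    {A : Matrix (Fin n) (Fin n) ℝ} (hA : A ∈ S) :
    Tendsto (fun B => ∫ z, Real.log (hess (φ B) z).det ∂(law Q)) (𝓝[S] A)
      (𝓝 (∫ z, Real.log (hess (φ A) z).det ∂(law Q))) := by
  have h1 : Tendsto (fun B : Matrix (Fin n) (Fin n) ℝ => K0 V - Real.log |B.det|) (𝓝[S] A)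
      (𝓝 (K0 V - Real.log |A.det|)) := by
    have h2 : ContinuousAt (fun B : Matrix (Fin n) (Fin n) ℝ => K0 V - Real.log |B.det|) A := by
      refine continuousAt_const.sub (ContinuousAt.log ?_ (abs_ne_zero.2 (h.det_ne hA)))
      exact (Continuous.matrix_det continuous_id).abs.continuousAt
    exact h2.tendsto.mono_left nhdsWithin_le_nhds
  rw [(h.logdet hP hV hA).2]
  refine h1.congr' ?_
  filter_upwards [self_mem_nhdsWithin] with B hB
  exact ((h.logdet hP hV hB).2).symm

/-! ### weak continuity -/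

theorem abs_hess_bp {φ V : E n → ℝ} {a b M κ : ℝ} (h : BP φ V a b M κ) (z : E n) (i j : Fin n) :
    |hess φ z i j| ≤ n * b := abs_hess_le' h.C2 h.a_pos.le h.lower h.upper z i j

/-- test function against a partial derivative -/
theorem weak_test {ψ : E n → ℝ} (hψ : ContDiff ℝ 1 ψ) (hs : HasCompactSupport ψ) (i : Fin n) :
    ∃ K : ℝ, 0 ≤ K ∧ ∀ u : E n → ℝ, ContDiff ℝ 1 u → Gr u → Gr (pd i u) →
      |∫ z, ψ z * pd i u z ∂(law Q)| ≤ K * Real.sqrt (∫ z, u z ^ 2 ∂(law Q)) := by
  have h0 := isProb_law (reg_Q (n := n))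
  have hpψ : Continuous (pd i ψ) := by
    unfold pd
    exact (hψ.continuous_fderiv (by norm_num)).clm_apply continuous_const
  have hsp : HasCompactSupport (pd i ψ) := by
    unfold pd
    exact (hs.fderiv ℝ).comp_left (g := fun L : E n →L[ℝ] ℝ => L (ei i)) (by simp)
  have gψ : Gr ψ := Gr.of_test hψ.continuous hs
  have gpψ : Gr (pd i ψ) := Gr.of_test hpψ hsp
  set w : E n → ℝ := fun z => z i * ψ z - pd i ψ z with hw
  have gw : Gr w := ((Gr.coord i).mul gψ).sub gpψ
  refine ⟨Real.sqrt (∫ z, w z ^ 2 ∂(law Q)), Real.sqrt_nonneg _, fun u hu gu gpu => ?_⟩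
  have hd1 : Differentiable ℝ ψ := hψ.differentiable (by norm_num)
  have hd2 : Differentiable ℝ u := hu.differentiable (by norm_num)
  have e1 : pd i (fun z => ψ z * u z) = fun z => ψ z * pd i u z + u z * pd i ψ z := by
    funext z
    unfold pd
    rw [fderiv_fun_mul (hd1 z) (hd2 z)]
    simp [smul_eq_mul]
  have h1 := ibp_Q (f := fun z => ψ z * u z) (hψ.mul hu) (gψ.mul gu) i
    (by rw [e1]; exact (gψ.mul gpu).add (gu.mul gpψ))
  rw [e1, ← int_law reg_Q, ← int_law reg_Q] at h1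
  have hi1 : Integrable (fun z => ψ z * pd i u z) (law Q) := integrable_law_gr reg_Q (gψ.mul gpu)
  have hi2 : Integrable (fun z => u z * pd i ψ z) (law Q) := integrable_law_gr reg_Q (gu.mul gpψ)
  have hi3 : Integrable (fun z : E n => z i * (ψ z * u z)) (law Q) :=
    integrable_law_gr reg_Q ((Gr.coord i).mul (gψ.mul gu))
  rw [integral_add hi1 hi2] at h1
  have h2 : ∫ z, ψ z * pd i u z ∂(law Q) = ∫ z, w z * u z ∂(law Q) := by
    have h3 : ∫ z, w z * u z ∂(law Q) = ∫ z : E n, z i * (ψ z * u z) ∂(law Q) -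
        ∫ z, u z * pd i ψ z ∂(law Q) := by
      rw [← integral_sub hi3 hi2]
      refine integral_congr_ae (Eventually.of_forall fun z => ?_)
      simp only [hw]
      ring
    rw [h3]
    linarith
  rw [h2]
  -- Cauchy-Schwarz
  have hiw : Integrable (fun z => w z ^ 2) (law Q) := integrable_law_gr reg_Q (gw.pow 2)
  have hiu : Integrable (fun z => u z ^ 2) (law Q) := integrable_law_gr reg_Q (gu.pow 2)
  have hiwu : Integrable (fun z => w z * u z) (law Q) := integrable_law_gr reg_Q (gw.mul gu)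
  have hW : 0 ≤ ∫ z, w z ^ 2 ∂(law Q) := integral_nonneg fun z => by positivity
  have hU : 0 ≤ ∫ z, u z ^ 2 ∂(law Q) := integral_nonneg fun z => by positivity
  have hcs : (∫ z, w z * u z ∂(law Q)) ^ 2 ≤
      (∫ z, w z ^ 2 ∂(law Q)) * ∫ z, u z ^ 2 ∂(law Q) := by
    have hq : ∀ t : ℝ, 0 ≤ (∫ z, w z ^ 2 ∂(law Q)) * (t * t) +
        (2 * ∫ z, w z * u z ∂(law Q)) * t + ∫ z, u z ^ 2 ∂(law Q) := by
      intro t
      have h4 : 0 ≤ ∫ z, (t * w z + u z) ^ 2 ∂(law Q) := integral_nonneg fun z => by positivity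
      have h5 : ∫ z, (t * w z + u z) ^ 2 ∂(law Q) = (∫ z, w z ^ 2 ∂(law Q)) * (t * t) +
          (2 * ∫ z, w z * u z ∂(law Q)) * t + ∫ z, u z ^ 2 ∂(law Q) := by
        have e2 : (fun z => (t * w z + u z) ^ 2) =
            fun z => (t * t) * w z ^ 2 + (2 * t) * (w z * u z) + u z ^ 2 := by
          funext z; ring
        have i1 : Integrable (fun z => (t * t) * w z ^ 2) (law Q) := hiw.const_mul _
        have i2 : Integrable (fun z => (2 * t) * (w z * u z)) (law Q) := hiwu.const_mul _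
        have i12 : Integrable (fun z => (t * t) * w z ^ 2 + (2 * t) * (w z * u z)) (law Q) :=
          i1.add i2
        rw [e2, integral_add i12 hiu, integral_add i1 i2, integral_const_mul,
          integral_const_mul]
        ring
      rw [← h5]
      exact h4
    have h6 := discrim_le_zero hq
    unfold discrim at h6
    nlinarith
  rw [← Real.sqrt_mul hW]
  exact Real.abs_le_sqrt hcs

/-- **weak continuity**: `E N ∂_i u → 0` when `E u² → 0` with bounded derivatives -/
theorem weak_zero {ι : Type*} {l : Filter ι} {N : E n → ℝ} (hN : Integrable N (law Q))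
    (i : Fin n) {u : ι → E n → ℝ} {K : ℝ}
    (hu : ∀ᶠ s in l, ContDiff ℝ 1 (u s) ∧ Gr (u s) ∧ Gr (pd i (u s)) ∧ ∀ z, |pd i (u s) z| ≤ K)
    (h0 : Tendsto (fun s => ∫ z, u s z ^ 2 ∂(law Q)) l (𝓝 0)) :
    Tendsto (fun s => ∫ z, N z * pd i (u s) z ∂(law Q)) l (𝓝 0) := by
  have hprob := isProb_law (reg_Q (n := n))
  rw [Metric.tendsto_nhds]
  intro ε hε
  rcases lt_or_ge K 0 with hK | hK
  · filter_upwards [hu] with s hs
    exact absurd ((abs_nonneg _).trans (hs.2.2.2 0)) (not_le.2 hK)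
  have hN1 : MemLp N 1 (law Q) := memLp_one_iff_integrable.2 hN
  obtain ⟨ψ, hs, hψ, happ⟩ := hN1.exist_eLpNorm_sub_le ENNReal.one_ne_top le_rfl
    (ε := ε / (2 * (K + 1))) (by positivity)
  have hψc : Continuous ψ := hψ.continuous
  have hψi : Integrable ψ (law Q) := integrable_law_gr reg_Q (Gr.of_test hψc hs)
  have happ' : ∫ z, |N z - ψ z| ∂(law Q) ≤ ε / (2 * (K + 1)) := by
    have h1 : eLpNorm (N - ψ) 1 (law Q) = ENNReal.ofReal (∫ z, |N z - ψ z| ∂(law Q)) := by
      have h2 : Integrable (fun z => |N z - ψ z|) (law Q) := (hN.sub hψi).abs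
      rw [eLpNorm_one_eq_lintegral_enorm,
        ofReal_integral_eq_lintegral_ofReal h2 (Eventually.of_forall fun z => abs_nonneg _)]
      refine lintegral_congr fun z => ?_
      rw [Pi.sub_apply, ← ofReal_norm, Real.norm_eq_abs]
    rw [h1] at happ
    exact (ENNReal.ofReal_le_ofReal_iff (by positivity)).1 happ
  obtain ⟨L, hL, hLb⟩ := weak_test (hψ.of_le (by exact_mod_cast le_top)) hs i
  have h3 : Tendsto (fun s => L * Real.sqrt (∫ z, u s z ^ 2 ∂(law Q))) l (𝓝 0) := by
    have h4 := (Real.continuous_sqrt.tendsto 0).comp h0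
    rw [Real.sqrt_zero] at h4
    have h5 := h4.const_mul L
    rw [mul_zero] at h5
    exact h5
  filter_upwards [hu, (Metric.tendsto_nhds.1 h3) (ε / 2) (by positivity)] with s hs1 hs2
  obtain ⟨hc, hg, hgp, hb⟩ := hs1
  rw [Real.dist_eq, sub_zero] at hs2 ⊢
  have hbm : ∀ z, ‖pd i (u s) z‖ ≤ K := fun z => by rw [Real.norm_eq_abs]; exact hb z
  have hmeas : AEStronglyMeasurable (pd i (u s)) (law Q) := hgp.cont.aestronglyMeasurable
  have hi1 : Integrable (fun z => N z * pd i (u s) z) (law Q) :=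
    hN.mul_bdd hmeas (Eventually.of_forall hbm)
  have hi2 : Integrable (fun z => ψ z * pd i (u s) z) (law Q) :=
    hψi.mul_bdd hmeas (Eventually.of_forall hbm)
  have hi3 : Integrable (fun z => (N z - ψ z) * pd i (u s) z) (law Q) :=
    (hN.sub hψi).mul_bdd hmeas (Eventually.of_forall hbm)
  have hi4 : Integrable (fun z => |N z - ψ z|) (law Q) := (hN.sub hψi).abs
  have e1 : ∫ z, N z * pd i (u s) z ∂(law Q) = ∫ z, (N z - ψ z) * pd i (u s) z ∂(law Q) +
      ∫ z, ψ z * pd i (u s) z ∂(law Q) := by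
    rw [← integral_add hi3 hi2]
    refine integral_congr_ae (Eventually.of_forall fun z => ?_)
    simp only
    ring
  have h6 : |∫ z, (N z - ψ z) * pd i (u s) z ∂(law Q)| ≤ K * (ε / (2 * (K + 1))) := by
    calc |∫ z, (N z - ψ z) * pd i (u s) z ∂(law Q)|
        ≤ ∫ z, |(N z - ψ z) * pd i (u s) z| ∂(law Q) := abs_integral_le_integral_abs
      _ ≤ ∫ z, K * |N z - ψ z| ∂(law Q) := by
          refine integral_mono hi3.abs (hi4.const_mul K) fun z => ?_
          show |(N z - ψ z) * pd i (u s) z| ≤ K * |N z - ψ z|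
          rw [abs_mul, mul_comm]
          exact mul_le_mul_of_nonneg_right (hb z) (abs_nonneg _)
      _ = K * ∫ z, |N z - ψ z| ∂(law Q) := integral_const_mul _ _
      _ ≤ _ := mul_le_mul_of_nonneg_left happ' hK
  have h7 : K * (ε / (2 * (K + 1))) ≤ ε / 2 := by
    rw [mul_div_assoc', div_le_div_iff₀ (by positivity) (by norm_num)]
    nlinarith
  have h8 := hLb (u s) hc hg hgp
  rw [e1]
  have h9 := abs_add_le (∫ z, (N z - ψ z) * pd i (u s) z ∂(law Q))
    (∫ z, ψ z * pd i (u s) z ∂(law Q))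
  have h10 : L * Real.sqrt (∫ z, u s z ^ 2 ∂(law Q)) < ε / 2 := lt_of_le_of_lt (le_abs_self _) hs2
  linarith

end Vale.Agent.P254.SP.H462
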