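import Mathlib.Analysis.SpecialFunctions.Log.Basic
import Mathlib.Analysis.SpecialFunctions.Pow.NNReal
import Mathlib.Analysis.Matrix.Spectrum
import Mathlib.Analysis.Matrix.PosDef

/-!
P254, block SP (helper462): matrices in two eigenframes: `‖g(H) - g(H₁)‖²_HS` and strict concavity of
`log det`, through the doubly stochastic matrix of squared overlaps.
-/

open Matrix Finset

noncomputable section

namespace Vale.Agent.P254.SP.H462

variable {ι : Type*} [Fintype ι] [DecidableEq ι] {U W : Matrix ι ι ℝ}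

/-- Hilbert-Schmidt norm squared -/
def hs (A : Matrix ι ι ℝ) : ℝ := ∑ i, ∑ j, A i j ^ 2

omit [DecidableEq ι] in
theorem hs_eq (A : Matrix ι ι ℝ) : hs A = (A * Aᵀ).trace := by
  unfold hs Matrix.trace
  refine Finset.sum_congr rfl fun i _ => ?_
  rw [diag_apply, Matrix.mul_apply]
  refine Finset.sum_congr rfl fun j _ => ?_
  rw [transpose_apply]
  ring

omit [DecidableEq ι] in
theorem hs_nonneg (A : Matrix ι ι ℝ) : 0 ≤ hs A :=
  Finset.sum_nonneg fun _ _ => Finset.sum_nonneg fun _ _ => sq_nonneg _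

omit [DecidableEq ι] in
theorem sq_le_hs (A : Matrix ι ι ℝ) (i j : ι) : A i j ^ 2 ≤ hs A := by
  refine le_trans ?_ (Finset.single_le_sum (f := fun i => ∑ j, A i j ^ 2)
    (fun _ _ => Finset.sum_nonneg fun _ _ => sq_nonneg _) (Finset.mem_univ i))
  exact Finset.single_le_sum (f := fun j => A i j ^ 2) (fun _ _ => sq_nonneg _) (Finset.mem_univ j)

theorem hs_conj (hU : Uᵀ * U = 1) (hW : Wᵀ * W = 1) (A : Matrix ι ι ℝ) :
    hs (Uᵀ * A * W) = hs A := by
  have hU' : U * Uᵀ = 1 := mul_eq_one_comm.1 hU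
  have hW' : W * Wᵀ = 1 := mul_eq_one_comm.1 hW
  rw [hs_eq, hs_eq]
  have e : Uᵀ * A * W * (Uᵀ * A * W)ᵀ = Uᵀ * (A * Aᵀ) * U := by
    rw [transpose_mul, transpose_mul, transpose_transpose]
    calc Uᵀ * A * W * (Wᵀ * (Aᵀ * U)) = Uᵀ * A * (W * Wᵀ) * Aᵀ * U := by
          simp only [Matrix.mul_assoc]
      _ = _ := by rw [hW', Matrix.mul_one]; simp only [Matrix.mul_assoc]
  rw [e, trace_mul_cycle, hU', Matrix.one_mul]

/-- squared overlaps of two frames -/
def ov (U W : Matrix ι ι ℝ) (i j : ι) : ℝ := (Uᵀ * W) i j ^ 2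

omit [DecidableEq ι] in
theorem ov_nonneg (i j : ι) : 0 ≤ ov U W i j := sq_nonneg _

theorem ov_row (hU : Uᵀ * U = 1) (hW : Wᵀ * W = 1) (i : ι) : ∑ j, ov U W i j = 1 := by
  have hW' : W * Wᵀ = 1 := mul_eq_one_comm.1 hW
  have e : Uᵀ * W * (Uᵀ * W)ᵀ = 1 := by
    rw [transpose_mul, transpose_transpose]
    calc Uᵀ * W * (Wᵀ * U) = Uᵀ * (W * Wᵀ) * U := by simp only [Matrix.mul_assoc]
      _ = 1 := by rw [hW', Matrix.mul_one, hU]
  have h := congrFun (congrFun e i) i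
  rw [Matrix.mul_apply, one_apply_eq] at h
  rw [← h]
  refine Finset.sum_congr rfl fun j _ => ?_
  rw [transpose_apply]
  unfold ov
  ring

theorem ov_col (hU : Uᵀ * U = 1) (hW : Wᵀ * W = 1) (j : ι) : ∑ i, ov U W i j = 1 := by
  have hU' : U * Uᵀ = 1 := mul_eq_one_comm.1 hU
  have e : (Uᵀ * W)ᵀ * (Uᵀ * W) = 1 := by
    rw [transpose_mul, transpose_transpose]
    calc Wᵀ * U * (Uᵀ * W) = Wᵀ * (U * Uᵀ) * W := by simp only [Matrix.mul_assoc]
      _ = 1 := by rw [hU', Matrix.mul_one, hW]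
  have h := congrFun (congrFun e j) j
  rw [Matrix.mul_apply, one_apply_eq] at h
  rw [← h]
  refine Finset.sum_congr rfl fun i _ => ?_
  rw [transpose_apply]
  unfold ov
  ring

/-- distance of two matrices in their eigenframes -/
theorem hs_sub (hU : Uᵀ * U = 1) (hW : Wᵀ * W = 1) (p q : ι → ℝ) :
    hs (U * diagonal p * Uᵀ - W * diagonal q * Wᵀ) =
      ∑ i, ∑ j, ov U W i j * (p i - q j) ^ 2 := by
  rw [← hs_conj hU hW]
  have e : Uᵀ * (U * diagonal p * Uᵀ - W * diagonal q * Wᵀ) * W =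
      diagonal p * (Uᵀ * W) - (Uᵀ * W) * diagonal q := by
    rw [mul_sub, sub_mul]
    congr 1
    · calc Uᵀ * (U * diagonal p * Uᵀ) * W = (Uᵀ * U) * diagonal p * (Uᵀ * W) := by
            simp only [Matrix.mul_assoc]
        _ = _ := by rw [hU, Matrix.one_mul]
    · calc Uᵀ * (W * diagonal q * Wᵀ) * W = (Uᵀ * W) * diagonal q * (Wᵀ * W) := by
            simp only [Matrix.mul_assoc]
        _ = _ := by rw [hW, Matrix.mul_one]
  rw [e]
  unfold hs ov
  refine Finset.sum_congr rfl fun i _ => Finset.sum_congr rfl fun j _ => ?_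
  rw [Matrix.sub_apply, diagonal_mul, mul_diagonal]
  ring

theorem trace_mul_fc (p q : ι → ℝ) :
    (U * diagonal p * Uᵀ * (W * diagonal q * Wᵀ)).trace =
      ∑ i, ∑ j, ov U W i j * (p i * q j) := by
  have e : (U * diagonal p * Uᵀ * (W * diagonal q * Wᵀ)).trace =
      (diagonal p * (Uᵀ * W) * diagonal q * (Uᵀ * W)ᵀ).trace := by
    rw [transpose_mul, transpose_transpose]
    calc (U * diagonal p * Uᵀ * (W * diagonal q * Wᵀ)).trace
        = (U * (diagonal p * Uᵀ * W * diagonal q * Wᵀ)).trace := by simp only [Matrix.mul_assoc]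
      _ = (diagonal p * Uᵀ * W * diagonal q * Wᵀ * U).trace := trace_mul_comm _ _
      _ = _ := by simp only [Matrix.mul_assoc]
  rw [e]
  unfold Matrix.trace ov
  refine Finset.sum_congr rfl fun i _ => ?_
  rw [diag_apply, Matrix.mul_apply]
  refine Finset.sum_congr rfl fun j _ => ?_
  rw [mul_diagonal, diagonal_mul, transpose_apply]
  ring

/-- Lipschitz functions of matrices -/
theorem hs_lip (hU : Uᵀ * U = 1) (hW : Wᵀ * W = 1) {p q : ι → ℝ} {a b : ℝ}
    (hp : ∀ i, p i ∈ Set.Icc a b) (hq : ∀ i, q i ∈ Set.Icc a b) {g : ℝ → ℝ} {L : ℝ}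
    (hg : ∀ x ∈ Set.Icc a b, ∀ y ∈ Set.Icc a b, |g x - g y| ≤ L * |x - y|) :
    hs (U * diagonal (fun i => g (p i)) * Uᵀ - W * diagonal (fun i => g (q i)) * Wᵀ) ≤
      L ^ 2 * hs (U * diagonal p * Uᵀ - W * diagonal q * Wᵀ) := by
  rw [hs_sub hU hW, hs_sub hU hW, Finset.mul_sum]
  refine Finset.sum_le_sum fun i _ => ?_
  rw [Finset.mul_sum]
  refine Finset.sum_le_sum fun j _ => ?_
  have h1 := hg _ (hp i) _ (hq j)
  have h2 : (g (p i) - g (q j)) ^ 2 ≤ L ^ 2 * (p i - q j) ^ 2 := by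
    have h3 := pow_le_pow_left₀ (abs_nonneg _) h1 2
    rw [sq_abs, mul_pow, sq_abs] at h3
    exact h3
  calc ov U W i j * (g (p i) - g (q j)) ^ 2 ≤ ov U W i j * (L ^ 2 * (p i - q j) ^ 2) :=
        mul_le_mul_of_nonneg_left h2 (ov_nonneg _ _)
    _ = _ := by ring

/-- a strict form of `log x ≤ x - 1` -/
theorem log_le_strict {x K : ℝ} (hx : 0 < x) (hK : x ≤ K) :
    Real.log x ≤ x - 1 - (x - 1) ^ 2 / (Real.sqrt K + 1) ^ 2 := by
  have hs : 0 < Real.sqrt x := Real.sqrt_pos.2 hx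
  have h1 := Real.log_le_sub_one_of_pos hs
  have h2 : Real.log x = 2 * Real.log (Real.sqrt x) := by
    rw [Real.log_sqrt hx.le]; ring
  have h3 : Real.sqrt x ^ 2 = x := Real.sq_sqrt hx.le
  have h4 : Real.sqrt x ≤ Real.sqrt K := Real.sqrt_le_sqrt hK
  have h5 : (x - 1) ^ 2 / (Real.sqrt K + 1) ^ 2 ≤ (Real.sqrt x - 1) ^ 2 := by
    rw [div_le_iff₀ (by positivity)]
    have e : (x - 1) ^ 2 = (Real.sqrt x - 1) ^ 2 * (Real.sqrt x + 1) ^ 2 := by
      rw [← mul_pow]
      congr 1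
      nlinarith
    rw [e]
    refine mul_le_mul_of_nonneg_left ?_ (sq_nonneg _)
    exact pow_le_pow_left₀ (by positivity) (by linarith) 2
  nlinarith

theorem det_fc (hU : Uᵀ * U = 1) (p : ι → ℝ) : (U * diagonal p * Uᵀ).det = ∏ i, p i := by
  have h1 : U.det * U.det = 1 := by
    have := congrArg Matrix.det hU
    rwa [det_mul, det_transpose, det_one] at this
  rw [det_mul, det_mul, det_transpose, det_diagonal]
  calc U.det * (∏ i, p i) * U.det = (U.det * U.det) * ∏ i, p i := by ring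
    _ = _ := by rw [h1, one_mul]

/-- **strict concavity of `log det`** -/
theorem logdet_strict (hU : Uᵀ * U = 1) (hW : Wᵀ * W = 1) {p q : ι → ℝ} {a b : ℝ} (ha : 0 < a)
    (hp : ∀ i, p i ∈ Set.Icc a b) (hq : ∀ i, q i ∈ Set.Icc a b) :
    1 / (b ^ 2 * (Real.sqrt (b / a) + 1) ^ 2) *
        hs (W * diagonal q * Wᵀ - U * diagonal p * Uᵀ) ≤
      Real.log (U * diagonal p * Uᵀ).det - Real.log (W * diagonal q * Wᵀ).det +
        (U * diagonal (fun i => (p i)⁻¹) * Uᵀ * (W * diagonal q * Wᵀ)).trace -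
        Fintype.card ι := by
  have hp0 : ∀ i, 0 < p i := fun i => ha.trans_le (hp i).1
  have hq0 : ∀ i, 0 < q i := fun i => ha.trans_le (hq i).1
  have hsym : hs (W * diagonal q * Wᵀ - U * diagonal p * Uᵀ) =
      hs (U * diagonal p * Uᵀ - W * diagonal q * Wᵀ) := by
    rw [← neg_sub]
    unfold hs
    refine Finset.sum_congr rfl fun i _ => Finset.sum_congr rfl fun j _ => ?_
    rw [Matrix.neg_apply, neg_sq]
  rw [hsym, hs_sub hU hW, trace_mul_fc, det_fc hU, det_fc hW,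
    Real.log_prod fun i _ => (hp0 i).ne', Real.log_prod fun i _ => (hq0 i).ne']
  have e1 : ∑ i, Real.log (p i) = ∑ i, ∑ j, ov U W i j * Real.log (p i) := by
    refine Finset.sum_congr rfl fun i _ => ?_
    rw [← Finset.sum_mul, ov_row hU hW, one_mul]
  have e2 : ∑ j, Real.log (q j) = ∑ i, ∑ j, ov U W i j * Real.log (q j) := by
    rw [Finset.sum_comm]
    refine Finset.sum_congr rfl fun j _ => ?_
    rw [← Finset.sum_mul, ov_col hU hW, one_mul]
  have e3 : (Fintype.card ι : ℝ) = ∑ i : ι, ∑ j, ov U W i j := by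
    simp only [ov_row hU hW]
    simp
  rw [e1, e2, e3, Finset.mul_sum, ← Finset.sum_sub_distrib, ← Finset.sum_add_distrib,
    ← Finset.sum_sub_distrib]
  refine Finset.sum_le_sum fun i _ => ?_
  rw [Finset.mul_sum, ← Finset.sum_sub_distrib, ← Finset.sum_add_distrib,
    ← Finset.sum_sub_distrib]
  refine Finset.sum_le_sum fun j _ => ?_
  set x := q j / p i with hx
  have hx0 : 0 < x := div_pos (hq0 j) (hp0 i)
  have hxK : x ≤ b / a := div_le_div₀ ((hq0 j).le.trans (hq j).2) (hq j).2 ha (hp i).1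
  have h1 := log_le_strict hx0 hxK
  have h2 : Real.log x = Real.log (q j) - Real.log (p i) := Real.log_div (hq0 j).ne' (hp0 i).ne'
  have h3 : (p i - q j) ^ 2 ≤ b ^ 2 * (x - 1) ^ 2 := by
    have e4 : p i - q j = -(p i * (x - 1)) := by
      rw [hx]; field_simp [(hp0 i).ne']; ring
    rw [e4, neg_sq, mul_pow]
    exact mul_le_mul_of_nonneg_right (pow_le_pow_left₀ (hp0 i).le (hp i).2 2) (sq_nonneg _)
  have h4 : 1 / (b ^ 2 * (Real.sqrt (b / a) + 1) ^ 2) * (p i - q j) ^ 2 ≤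
      (x - 1) ^ 2 / (Real.sqrt (b / a) + 1) ^ 2 := by
    have hb0 : 0 < b := (hp0 i).trans_le (hp i).2
    have hb2 : 0 < b ^ 2 := by positivity
    have hr : 0 < (Real.sqrt (b / a) + 1) ^ 2 := by positivity
    rw [div_mul_eq_mul_div, one_mul, div_le_div_iff₀ (by positivity) hr]
    nlinarith [mul_le_mul_of_nonneg_right h3 hr.le]
  have h5 : (p i)⁻¹ * q j = x := by rw [hx]; field_simp
  have h6 : 0 ≤ ov U W i j := ov_nonneg _ _
  rw [h5]
  have h7 : 1 / (b ^ 2 * (Real.sqrt (b / a) + 1) ^ 2) * (p i - q j) ^ 2 ≤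
      Real.log (p i) - Real.log (q j) + x - 1 := by linarith
  calc 1 / (b ^ 2 * (Real.sqrt (b / a) + 1) ^ 2) * (ov U W i j * (p i - q j) ^ 2)
      = ov U W i j * (1 / (b ^ 2 * (Real.sqrt (b / a) + 1) ^ 2) * (p i - q j) ^ 2) := by ring
    _ ≤ ov U W i j * (Real.log (p i) - Real.log (q j) + x - 1) :=
        mul_le_mul_of_nonneg_left h7 h6
    _ = _ := by ring

/-- entries are bounded by the eigenvalues -/
theorem abs_fc_le (hU : Uᵀ * U = 1) {p : ι → ℝ} {K : ℝ} (hK : ∀ i, |p i| ≤ K) (i j : ι) :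
    |(U * diagonal p * Uᵀ) i j| ≤ Real.sqrt (Fintype.card ι * K ^ 2) := by
  have h1 := sq_le_hs (U * diagonal p * Uᵀ) i j
  have h2 := hs_sub (U := U) (W := U) hU hU p (fun _ => 0)
  have e1 : U * diagonal (fun _ : ι => (0 : ℝ)) * Uᵀ = 0 := by
    have : diagonal (fun _ : ι => (0 : ℝ)) = 0 := diagonal_zero
    rw [this, Matrix.mul_zero, Matrix.zero_mul]
  rw [e1, sub_zero] at h2
  have h3 : hs (U * diagonal p * Uᵀ) ≤ Fintype.card ι * K ^ 2 := by
    rw [h2]
    calc ∑ i, ∑ j, ov U U i j * (p i - 0) ^ 2 ≤ ∑ i : ι, ∑ j, ov U U i j * K ^ 2 := by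
          refine Finset.sum_le_sum fun i _ => Finset.sum_le_sum fun j _ => ?_
          refine mul_le_mul_of_nonneg_left ?_ (ov_nonneg _ _)
          rw [sub_zero, ← sq_abs]
          exact pow_le_pow_left₀ (abs_nonneg _) (hK i) 2
      _ = _ := by
          simp only [← Finset.sum_mul, ov_row hU hU]
          simp
  exact Real.abs_le_sqrt (h1.trans h3)

end Vale.Agent.P254.SP.H462
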