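import Vale.Agent.P254.SP.H462.Ent
import Vale.Agent.P254.SP.H462.Mat
import Vale.Agent.P254.SP.POS.Iface
import Vale.Agent.P254.S.H130.Main

/-!
P254, block SP, row SP-POS/P3 (helper462): `StmtPush → StmtCont`.
-/

open MeasureTheory Matrix Filter Topology
open scoped Matrix MatrixOrder

noncomputable section

namespace Vale.Agent.P254.SP.H462

open Vale.Agent.P227.M Vale.Agent.P254.S Vale.Agent.P254.S.H545 Vale.Agent.P254.SP.Pos

variable {n : ℕ} {V : E n → ℝ} {c C p a b : ℝ} {S : Set (Matrix (Fin n) (Fin n) ℝ)}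
  {φ : Matrix (Fin n) (Fin n) ℝ → E n → ℝ} {M κ : Matrix (Fin n) (Fin n) ℝ → ℝ}

theorem Fm.tendsto_u (hP : StmtPush) (hV : Reg V c C) (h : Fm V p a b S φ M κ) (hb : 0 < b)
    {A : Matrix (Fin n) (Fin n) ℝ} (hA : A ∈ S) (i : Fin n) :
    Tendsto (fun B => ∫ z, (pd i (φ B) z - pd i (φ A) z) ^ 2 ∂(law Q)) (𝓝[S] A) (𝓝 0) := by
  refine squeeze_zero' (Eventually.of_forall fun B => integral_nonneg fun z => by positivity)
    ?_ (h.tendsto_T hP hV hb hA)
  filter_upwards [self_mem_nhdsWithin] with B hB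
  have hbA := h.bp A hA
  have hbB := h.bp B hB
  have hiD : Integrable (fun z => ‖gradient (φ B) z - gradient (φ A) z‖ ^ 2) (law Q) := by
    simpa only [lin_one] using integrable_law_gr reg_Q (gr_norm_grad2 hbB hbA 1)
  refine integral_mono (integrable_law_gr reg_Q (((gr_dφ hbB i).sub (gr_dφ hbA i)).pow 2)) hiD
    fun z => ?_
  simp only
  rw [norm_sq_eq_sum]
  have h1 : (gradient (φ B) z - gradient (φ A) z) i = pd i (φ B) z - pd i (φ A) z := by
    rw [PiLp.sub_apply, grad_coord, grad_coord]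
  rw [← h1]
  exact Finset.single_le_sum (f := fun k => (gradient (φ B) z - gradient (φ A) z) k ^ 2)
    (fun _ _ => sq_nonneg _) (Finset.mem_univ i)

theorem pd_sub {f g : E n → ℝ} (hf : ContDiff ℝ 1 f) (hg : ContDiff ℝ 1 g) (i : Fin n) (z : E n) :
    pd i (fun y => f y - g y) z = pd i f z - pd i g z := by
  unfold pd
  rw [fderiv_fun_sub (hf.differentiable (by norm_num) z) (hg.differentiable (by norm_num) z)]
  rfl

section spec

variable {U : Matrix (Fin n) (Fin n) ℝ → E n → Matrix (Fin n) (Fin n) ℝ}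
  {m : Matrix (Fin n) (Fin n) ℝ → E n → Fin n → ℝ}

/-- continuity of a Lipschitz function of the Hessian -/
theorem fc_cont {φ V : E n → ℝ} {a b M κ : ℝ} (h : BP φ V a b M κ)
    {U : E n → Matrix (Fin n) (Fin n) ℝ} {m : E n → Fin n → ℝ} (hS : Spec (hess φ) U m)
    {g : ℝ → ℝ} {L : ℝ} (hL : 0 ≤ L)
    (hg : ∀ x ∈ Set.Icc a b, ∀ y ∈ Set.Icc a b, |g x - g y| ≤ L * |x - y|) (i j : Fin n) :
    Gr fun z => fc U m g z i j := by
  have hor : ∀ z, (U z)ᵀ * U z = 1 := fun z => S130.orth' hS z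
  have hm : ∀ z k, m z k ∈ Set.Icc a b := fun z k => S130.eig_mem h hS z k
  have hcont : Continuous fun z => fc U m g z i j := by
    rw [continuous_iff_continuousAt]
    intro z₀
    have h1 : Tendsto (fun z => L * Real.sqrt (hs (hess φ z - hess φ z₀))) (𝓝 z₀) (𝓝 0) := by
      have h2 : Continuous fun z => hs (hess φ z - hess φ z₀) := by
        unfold hs
        refine continuous_finsetSum _ fun i _ => continuous_finsetSum _ fun j _ => ?_
        exact ((continuous_hess h.C2 i j).sub continuous_const).pow 2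
      have h3 := ((Real.continuous_sqrt.comp h2).const_mul L).tendsto z₀
      have e : hs (hess φ z₀ - hess φ z₀) = 0 := by
        rw [sub_self]; unfold hs; simp
      simp only [Function.comp_apply] at h3
      rw [e, Real.sqrt_zero, mul_zero] at h3
      exact h3
    show Tendsto _ _ _
    rw [tendsto_iff_dist_tendsto_zero]
    refine squeeze_zero (fun z => dist_nonneg) (fun z => ?_) h1
    rw [Real.dist_eq]
    have h4 := hs_lip (hor z) (hor z₀) (hm z) (hm z₀) hg
    have h5 := sq_le_hs (fc U m g z - fc U m g z₀) i j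
    have h6 : hs (fc U m g z - fc U m g z₀) ≤ L ^ 2 * hs (hess φ z - hess φ z₀) := by
      rw [hS.dec z, hS.dec z₀]
      exact h4
    have h7 : |fc U m g z i j - fc U m g z₀ i j| ≤
        Real.sqrt (L ^ 2 * hs (hess φ z - hess φ z₀)) := Real.abs_le_sqrt (h5.trans h6)
    rwa [Real.sqrt_mul (sq_nonneg _), Real.sqrt_sq hL] at h7
  rcases Nat.eq_zero_or_pos n with h0 | h0
  · subst h0
    exact i.elim0
  have hab : a ≤ b := (hm 0 ⟨0, h0⟩).1.trans (hm 0 ⟨0, h0⟩).2
  refine Gr.of_bound hcont (B := Real.sqrt (Fintype.card (Fin n) * (|g a| + L * (b - a)) ^ 2))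
    fun z => ?_
  refine abs_fc_le (hor z) (fun k => ?_) i j
  have h8 := hg _ (hm z k) a ⟨le_rfl, hab⟩
  have h9 : |m z k - a| ≤ b - a := by
    rw [abs_of_nonneg (by linarith [(hm z k).1])]
    linarith [(hm z k).2]
  calc |g (m z k)| = |g a + (g (m z k) - g a)| := by ring_nf
    _ ≤ |g a| + |g (m z k) - g a| := abs_add_le _ _
    _ ≤ |g a| + L * (b - a) := by
        have := mul_le_mul_of_nonneg_left h9 hL
        linarith

theorem inv_lip {a : ℝ} (ha : 0 < a) {b : ℝ} (x : ℝ) (hx : x ∈ Set.Icc a b) (y : ℝ)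
    (hy : y ∈ Set.Icc a b) : |x⁻¹ - y⁻¹| ≤ (a ^ 2)⁻¹ * |x - y| := by
  have hx0 : 0 < x := ha.trans_le hx.1
  have hy0 : 0 < y := ha.trans_le hy.1
  have e : x⁻¹ - y⁻¹ = -((x * y)⁻¹ * (x - y)) := by
    field_simp
    ring
  rw [e, abs_neg, abs_mul, abs_of_pos (by positivity)]
  refine mul_le_mul_of_nonneg_right ?_ (abs_nonneg _)
  refine inv_anti₀ (by positivity) ?_
  nlinarith [mul_le_mul hx.1 hy.1 ha.le hx0.le]

/-- the constant of strict concavity -/
def k0 (a b : ℝ) : ℝ := 1 / (b ^ 2 * (Real.sqrt (b / a) + 1) ^ 2)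

theorem k0_pos {a b : ℝ} (hb : 0 < b) : 0 < k0 a b := by
  unfold k0
  have : 0 < Real.sqrt (b / a) + 1 := by positivity
  positivity

theorem hess_gr {φ V : E n → ℝ} {a b M κ : ℝ} (h : BP φ V a b M κ) {φ' V' : E n → ℝ}
    {a' b' M' κ' : ℝ} (h' : BP φ' V' a' b' M' κ') : Gr fun z => hs (hess φ z - hess φ' z) := by
  unfold hs
  exact Gr.sum _ fun i _ => Gr.sum _ fun j _ => ((gr_ddφ h i j).sub (gr_ddφ h' i j)).pow 2

/-- stability of the Hessians, integrated -/
theorem Fm.hess_est (hP : StmtPush) (hV : Reg V c C) (h : Fm V p a b S φ M κ)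
    (hS : ∀ P ∈ S, Spec (hess (φ P)) (U P) (m P))
    {A B : Matrix (Fin n) (Fin n) ℝ} (hA : A ∈ S) (hB : B ∈ S) :
    k0 a b * ∫ z, hs (hess (φ B) z - hess (φ A) z) ∂(law Q) ≤
      ∫ z, Real.log (hess (φ A) z).det ∂(law Q) - ∫ z, Real.log (hess (φ B) z).det ∂(law Q) +
        ∑ i, ∑ j, ∫ z, fc (U A) (m A) (fun x => x⁻¹) z i j *
          pd j (fun y => pd i (φ B) y - pd i (φ A) y) z ∂(law Q) := by
  have hbA := h.bp A hA
  have hbB := h.bp B hB
  have ha := hbA.a_pos
  have hi0 : Integrable (fun z => hs (hess (φ B) z - hess (φ A) z)) (law Q) :=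
    integrable_law_gr reg_Q (hess_gr hbB hbA)
  have hi1 := (h.logdet hP hV hA).1
  have hi2 := (h.logdet hP hV hB).1
  have gN : ∀ i j, Gr fun z => fc (U A) (m A) (fun x => x⁻¹) z i j := fun i j =>
    fc_cont hbA (hS A hA) (inv_nonneg.2 (by positivity)) (inv_lip ha) i j
  have e0 : ∀ i j z, pd j (fun y => pd i (φ B) y - pd i (φ A) y) z =
      hess (φ B) z j i - hess (φ A) z j i := fun i j z =>
    pd_sub (contDiff_pd hbB.C2 (by norm_num) i) (contDiff_pd hbA.C2 (by norm_num) i) j z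
  have hi3 : ∀ i j, Integrable (fun z => fc (U A) (m A) (fun x => x⁻¹) z i j *
      pd j (fun y => pd i (φ B) y - pd i (φ A) y) z) (law Q) := by
    intro i j
    simp only [e0]
    exact integrable_law_gr reg_Q ((gN i j).mul ((gr_ddφ hbB j i).sub (gr_ddφ hbA j i)))
  have hi4 : Integrable (fun z => ∑ i, ∑ j, fc (U A) (m A) (fun x => x⁻¹) z i j *
      pd j (fun y => pd i (φ B) y - pd i (φ A) y) z) (law Q) :=
    integrable_finsetSum _ fun i _ => integrable_finsetSum _ fun j _ => hi3 i j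
  have hi12 : Integrable (fun z => Real.log (hess (φ A) z).det -
      Real.log (hess (φ B) z).det) (law Q) := hi1.sub hi2
  have hpt : ∀ z, k0 a b * hs (hess (φ B) z - hess (φ A) z) ≤
      Real.log (hess (φ A) z).det - Real.log (hess (φ B) z).det +
        ∑ i, ∑ j, fc (U A) (m A) (fun x => x⁻¹) z i j *
          pd j (fun y => pd i (φ B) y - pd i (φ A) y) z := by
    intro z
    have hU : (U A z)ᵀ * U A z = 1 := S130.orth' (hS A hA) z
    have hW : (U B z)ᵀ * U B z = 1 := S130.orth' (hS B hB) z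
    have h1 := logdet_strict hU hW ha (fun k => S130.eig_mem hbA (hS A hA) z k)
      (fun k => S130.eig_mem hbB (hS B hB) z k)
    rw [← (hS A hA).dec z, ← (hS B hB).dec z] at h1
    have e1 : ∑ i, ∑ j, fc (U A) (m A) (fun x => x⁻¹) z i j *
        pd j (fun y => pd i (φ B) y - pd i (φ A) y) z =
        (fc (U A) (m A) (fun x => x⁻¹) z * (hess (φ B) z - hess (φ A) z)).trace := by
      unfold Matrix.trace
      refine Finset.sum_congr rfl fun i _ => ?_
      rw [diag_apply, Matrix.mul_apply]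
      refine Finset.sum_congr rfl fun j _ => ?_
      rw [e0, Matrix.sub_apply]
    have e2 : (fc (U A) (m A) (fun x => x⁻¹) z * hess (φ A) z).trace = Fintype.card (Fin n) := by
      rw [(hS A hA).dec z]
      unfold fc
      rw [trace_mul_fc]
      have hm0 : ∀ k, m A z k ≠ 0 := fun k => (ha.trans_le (S130.eig_mem hbA (hS A hA) z k).1).ne'
      have e3 : ∀ i j, ov (U A z) (U A z) i j * ((m A z i)⁻¹ * m A z j) =
          if i = j then 1 else 0 := by
        intro i j
        unfold ov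
        rw [hU, Matrix.one_apply]
        split_ifs with hij
        · subst hij
          rw [inv_mul_cancel₀ (hm0 i)]; norm_num
        · norm_num
      simp only [e3]
      simp
    rw [e1, mul_sub, Matrix.trace_sub, e2]
    unfold k0
    have e4 : fc (U A) (m A) (fun x => x⁻¹) z =
        U A z * diagonal (fun i => (m A z i)⁻¹) * (U A z)ᵀ := rfl
    rw [e4]
    linarith
  have h2 := integral_mono (hi0.const_mul (k0 a b)) (hi12.add hi4) hpt
  have h3 : ∫ z, ((fun z => Real.log (hess (φ A) z).det - Real.log (hess (φ B) z).det) +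
      fun z => ∑ i, ∑ j, fc (U A) (m A) (fun x => x⁻¹) z i j *
          pd j (fun y => pd i (φ B) y - pd i (φ A) y) z) z ∂(law Q) =
      ∫ z, Real.log (hess (φ A) z).det ∂(law Q) - ∫ z, Real.log (hess (φ B) z).det ∂(law Q) +
        ∑ i, ∑ j, ∫ z, fc (U A) (m A) (fun x => x⁻¹) z i j *
          pd j (fun y => pd i (φ B) y - pd i (φ A) y) z ∂(law Q) := by
    simp only [Pi.add_apply]
    rw [integral_add hi12 hi4, integral_sub hi1 hi2,
      integral_finsetSum _ fun i _ => integrable_finsetSum _ fun j _ => hi3 i j]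
    congr 1
    refine Finset.sum_congr rfl fun i _ => ?_
    rw [integral_finsetSum _ fun j _ => hi3 i j]
  rw [integral_const_mul] at h2
  exact h2.trans (le_of_eq h3)

/-- **`L²` continuity of the Hessians** -/
theorem Fm.tendsto_hess (hP : StmtPush) (hV : Reg V c C) (h : Fm V p a b S φ M κ) (hb : 0 < b)
    (hS : ∀ P ∈ S, Spec (hess (φ P)) (U P) (m P)) {A : Matrix (Fin n) (Fin n) ℝ} (hA : A ∈ S) :
    Tendsto (fun B => ∫ z, hs (hess (φ B) z - hess (φ A) z) ∂(law Q)) (𝓝[S] A) (𝓝 0) := by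
  have hbA := h.bp A hA
  have ha := hbA.a_pos
  have gN : ∀ i j, Gr fun z => fc (U A) (m A) (fun x => x⁻¹) z i j := fun i j =>
    fc_cont hbA (hS A hA) (inv_nonneg.2 (by positivity)) (inv_lip ha) i j
  have h1 : Tendsto (fun B => ∑ i, ∑ j, ∫ z, fc (U A) (m A) (fun x => x⁻¹) z i j *
      pd j (fun y => pd i (φ B) y - pd i (φ A) y) z ∂(law Q)) (𝓝[S] A) (𝓝 0) := by
    have h2 : ∀ i j, Tendsto (fun B => ∫ z, fc (U A) (m A) (fun x => x⁻¹) z i j *
        pd j (fun y => pd i (φ B) y - pd i (φ A) y) z ∂(law Q)) (𝓝[S] A) (𝓝 0) := by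
      intro i j
      refine weak_zero (integrable_law_gr reg_Q (gN i j)) j
        (u := fun B y => pd i (φ B) y - pd i (φ A) y) (K := n * b + n * b) ?_
        (h.tendsto_u hP hV hb hA i)
      filter_upwards [self_mem_nhdsWithin] with B hB
      have hbB := h.bp B hB
      have e0 : ∀ z, pd j (fun y => pd i (φ B) y - pd i (φ A) y) z =
          hess (φ B) z j i - hess (φ A) z j i := fun z =>
        pd_sub (contDiff_pd hbB.C2 (by norm_num) i) (contDiff_pd hbA.C2 (by norm_num) i) j z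
      refine ⟨(contDiff_pd hbB.C2 (by norm_num) i).sub (contDiff_pd hbA.C2 (by norm_num) i),
        (gr_dφ hbB i).sub (gr_dφ hbA i), ?_, fun z => ?_⟩
      · have e1 : pd j (fun y => pd i (φ B) y - pd i (φ A) y) =
            fun z => hess (φ B) z j i - hess (φ A) z j i := funext e0
        rw [e1]
        exact (gr_ddφ hbB j i).sub (gr_ddφ hbA j i)
      · rw [e0]
        exact (abs_sub _ _).trans (add_le_add (abs_hess_bp hbB z j i) (abs_hess_bp hbA z j i))
    have h3 := tendsto_finsetSum (Finset.univ : Finset (Fin n)) fun i _ =>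
      tendsto_finsetSum (Finset.univ : Finset (Fin n)) fun j _ => h2 i j
    simpa using h3
  have h4 : Tendsto (fun B => (k0 a b)⁻¹ * (∫ z, Real.log (hess (φ A) z).det ∂(law Q) -
      ∫ z, Real.log (hess (φ B) z).det ∂(law Q) +
        ∑ i, ∑ j, ∫ z, fc (U A) (m A) (fun x => x⁻¹) z i j *
          pd j (fun y => pd i (φ B) y - pd i (φ A) y) z ∂(law Q))) (𝓝[S] A) (𝓝 0) := by
    have h5 := (((tendsto_const_nhds (x := ∫ z, Real.log (hess (φ A) z).det ∂(law Q))).sub
      (h.tendsto_logdet hP hV hA)).add h1).const_mul (k0 a b)⁻¹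
    simpa using h5
  refine squeeze_zero' (Eventually.of_forall fun B => integral_nonneg fun z => hs_nonneg _) ?_ h4
  filter_upwards [self_mem_nhdsWithin] with B hB
  have h6 := h.hess_est hP hV hS hA hB
  rw [inv_mul_eq_div, le_div_iff₀ (k0_pos hb), mul_comm]
  exact h6

/-- **continuity of the mean of a Lipschitz function of the Hessian** -/
theorem Fm.continuousOn_mF (hP : StmtPush) (hV : Reg V c C) (h : Fm V p a b S φ M κ) (hb : 0 < b)
    (hS : ∀ P ∈ S, Spec (hess (φ P)) (U P) (m P)) {g : ℝ → ℝ} {L : ℝ} (hL : 0 ≤ L)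
    (hg : ∀ x ∈ Set.Icc a b, ∀ y ∈ Set.Icc a b, |g x - g y| ≤ L * |x - y|) :
    ContinuousOn (fun P => mF (U P) (m P) g) S := by
  have hprob := isProb_law (reg_Q (n := n))
  intro A hA
  have hbA := h.bp A hA
  refine tendsto_pi_nhds.2 fun i => tendsto_pi_nhds.2 fun j => ?_
  rw [tendsto_iff_dist_tendsto_zero]
  have h1 : Tendsto (fun B => L * Real.sqrt (∫ z, hs (hess (φ B) z - hess (φ A) z) ∂(law Q)))
      (𝓝[S] A) (𝓝 0) := by
    have h2 := (Real.continuous_sqrt.tendsto 0).comp (h.tendsto_hess hP hV hb hS hA)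
    rw [Real.sqrt_zero] at h2
    have h3 := h2.const_mul L
    rw [mul_zero] at h3
    exact h3
  refine squeeze_zero' (Eventually.of_forall fun B => dist_nonneg) ?_ h1
  filter_upwards [self_mem_nhdsWithin] with B hB
  have hbB := h.bp B hB
  have gA := fc_cont hbA (hS A hA) hL hg i j
  have gB := fc_cont hbB (hS B hB) hL hg i j
  have iA : Integrable (fun z => fc (U A) (m A) g z i j) (law Q) := integrable_law_gr reg_Q gA
  have iB : Integrable (fun z => fc (U B) (m B) g z i j) (law Q) := integrable_law_gr reg_Q gB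
  have iH : Integrable (fun z => hs (hess (φ B) z - hess (φ A) z)) (law Q) :=
    integrable_law_gr reg_Q (hess_gr hbB hbA)
  rw [Real.dist_eq]
  unfold mF
  rw [← int_law reg_Q, ← int_law reg_Q, ← integral_sub iB iA]
  have iD : Integrable (fun z => (fc (U B) (m B) g z i j - fc (U A) (m A) g z i j) ^ 2) (law Q) :=
    integrable_law_gr reg_Q ((gB.sub gA).pow 2)
  have h4 : (∫ z, (fc (U B) (m B) g z i j - fc (U A) (m A) g z i j) ∂(law Q)) ^ 2 ≤
      ∫ z, (fc (U B) (m B) g z i j - fc (U A) (m A) g z i j) ^ 2 ∂(law Q) := by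
    set f : E n → ℝ := fun z => fc (U B) (m B) g z i j - fc (U A) (m A) g z i j with hf
    have if1 : Integrable f (law Q) := iB.sub iA
    have h5 : 0 ≤ ∫ z, (f z - ∫ w, f w ∂(law Q)) ^ 2 ∂(law Q) :=
      integral_nonneg fun z => sq_nonneg _
    have h6 : ∫ z, (f z - ∫ w, f w ∂(law Q)) ^ 2 ∂(law Q) =
        ∫ z, f z ^ 2 ∂(law Q) - (∫ w, f w ∂(law Q)) ^ 2 := by
      have e : (fun z => (f z - ∫ w, f w ∂(law Q)) ^ 2) = fun z =>
          (f z ^ 2 - (2 * ∫ w, f w ∂(law Q)) * f z) + (∫ w, f w ∂(law Q)) ^ 2 := by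
        funext z; ring
      have i1 : Integrable (fun z => (2 * ∫ w, f w ∂(law Q)) * f z) (law Q) := if1.const_mul _
      have i2 : Integrable (fun z => f z ^ 2 - (2 * ∫ w, f w ∂(law Q)) * f z) (law Q) :=
        iD.sub i1
      rw [e, integral_add i2 (integrable_const _), integral_sub iD i1, integral_const_mul]
      have e2 : ∫ _z : E n, (∫ w, f w ∂(law Q)) ^ 2 ∂(law Q) = (∫ w, f w ∂(law Q)) ^ 2 := by simp
      rw [e2]
      ring
    linarith
  have h7 : ∫ z, (fc (U B) (m B) g z i j - fc (U A) (m A) g z i j) ^ 2 ∂(law Q) ≤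
      ∫ z, L ^ 2 * hs (hess (φ B) z - hess (φ A) z) ∂(law Q) := by
    refine integral_mono iD (iH.const_mul _) fun z => ?_
    have h8 := hs_lip (S130.orth' (hS B hB) z) (S130.orth' (hS A hA) z)
      (fun k => S130.eig_mem hbB (hS B hB) z k) (fun k => S130.eig_mem hbA (hS A hA) z k) hg
    rw [← (hS B hB).dec z, ← (hS A hA).dec z] at h8
    have h9 := sq_le_hs (fc (U B) (m B) g z - fc (U A) (m A) g z) i j
    exact h9.trans h8
  rw [integral_const_mul] at h7
  have h10 := Real.abs_le_sqrt (h4.trans h7)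
  rwa [Real.sqrt_mul (sq_nonneg _), Real.sqrt_sq hL] at h10

end spec

/-- **SP-POS/P3** -/
theorem stmtCont (hP : StmtPush) : StmtCont := by
  intro n V c C hV p q a b hp hpq φ M κ hBP U m hSpec g L hg
  rcases Nat.eq_zero_or_pos n with h0 | h0
  · subst h0
    have : Subsingleton (Matrix (Fin 0) (Fin 0) ℝ) := inferInstance
    have e : (fun P => mF (U P) (m P) g) = fun _ => 0 := funext fun P => Subsingleton.elim _ _
    rw [e]
    exact continuousOn_const
  rcases (Box n p q).eq_empty_or_nonempty with he | ⟨A, hA⟩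
  · rw [he]; exact continuousOn_empty _
  have hab : a ≤ b := by
    have hm := S130.eig_mem (hBP A hA) (hSpec A hA) 0 ⟨0, h0⟩
    exact hm.1.trans hm.2
  have hb : 0 < b := (hBP A hA).a_pos.trans_le hab
  have hF : Fm V p a b (Box n p q) φ M κ :=
    ⟨hp, fun P hP => hP.2.1, fun P hP => hP.1, hBP⟩
  have hg' : ∀ x ∈ Set.Icc a b, ∀ y ∈ Set.Icc a b, |g x - g y| ≤ |L| * |x - y| :=
    fun x hx y hy => (hg x hx y hy).trans
      (mul_le_mul_of_nonneg_right (le_abs_self _) (abs_nonneg _))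
  exact hF.continuousOn_mF hP hV hb hSpec (abs_nonneg L) hg'

end Vale.Agent.P254.SP.H462
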