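import Vale.Agent.P254.SP.H692.Var
import Vale.Agent.P254.S.H129.Poi

/-!
# P254, block SP (helper462): the plain bound of the variance of a column

`Var ⟨e,∇φ⟩ ≤ E |D²φ e|² = E Σ_i L(s_i)² (Uᵀ e)_i²` (mode 0 of the column certificate).
-/

set_option autoImplicit false

open MeasureTheory Matrix

namespace Vale.Agent.P254.SP.H462

open Vale.Agent.P227.M Vale.Agent.P254.S
open Vale.Agent.P254.S130 (gQ Ex_eq MBL BL)
open Vale.Agent.P254.SP620 (mbl_fc mblH ae_good diff_fc Fr_orth)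

variable {n : ℕ}

/-- `|f(G) e|² = Σ_i f(s_i)² (Uᵀ e)_i²` -/
theorem sum_fc_mulVec_sq {U : E n → Matrix (Fin n) (Fin n) ℝ} {s : E n → Fin n → ℝ} {z : E n}
    (hU : U z * (U z).transpose = 1) (f : ℝ → ℝ) (e : Fin n → ℝ) :
    ∑ i, (fc U s f z).mulVec e i ^ 2 = ∑ i, f (s z i) ^ 2 * xx U e z i ^ 2 := by
  have hU' : (U z).transpose * U z = 1 := mul_eq_one_comm.1 hU
  have h := H692.dot_fc (U := U) (s := s) (z := z) hU' f f e
  have e1 : ∑ i, (fc U s f z).mulVec e i ^ 2 =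
      ∑ i, (fc U s f z).mulVec e i * (fc U s f z).mulVec e i :=
    Finset.sum_congr rfl fun i _ => by ring
  rw [e1]
  refine h.trans (Finset.sum_congr rfl fun i _ => ?_)
  ring

/-- **plain variance bound of a column** -/
theorem var_plain {P : F1} {φ V : E n → ℝ} {a b M κ : ℝ} {U : E n → Matrix (Fin n) (Fin n) ℝ}
    {s : E n → Fin n → ℝ} (h : BP φ V a b M κ) (hF : Fr P φ U s) (e : Fin n → ℝ) :
    Ex Q (fun z => fe φ e z ^ 2) - (Ex Q (fe φ e)) ^ 2
      ≤ Ex Q (fun z => ∑ i, P.L (s z i) ^ 2 * xx U e z i ^ 2) := by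
  have hH : MBL (hess φ) := mblH h hF
  obtain ⟨K, hK⟩ := H692.lip_fe h.C2 hH e
  refine (S129.stmtPoi n (fe φ e) K hK).trans (le_of_eq ?_)
  congr 1
  funext z
  rw [← sum_fc_mulVec_sq (hF.orth z) P.L e]
  refine Finset.sum_congr rfl fun i _ => ?_
  rw [H692.pd_fe h.C2, hF.dec z]

end Vale.Agent.P254.SP.H462
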